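import Mathlib
import Vale.Agent.P208.Classes

/-! P208: doubling subsets of a Hilbert space which are finite unions of flat pieces (sets with
convex closure, sets closed under addition, sets containing approximate balls of the spaces spanned
by their points) are isometric to subsets of `ℝ^k`, `k` bounded by the doubling constant. -/

namespace Vale.Agent.Results.P208.FlatPieces

open Vale.Agent.P208

/-- `X` is isometric to a subset of `ℝ^k` for some `k ≤ M`. -/
def IsomEmbeds {H : Type} [NormedAddCommGroup H] [InnerProductSpace ℝ H] (X : Set H) (M : ℕ) :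
    Prop :=
  ∃ k ≤ M, ∃ f : H → EuclideanSpace ℝ (Fin k), ∀ x ∈ X, ∀ y ∈ X, dist (f x) (f y) = dist x y

theorem result : ∀ (H : Type) [NormedAddCommGroup H] [InnerProductSpace ℝ H] (X : Set H) (N : ℕ),
    DoublingWith X N →
    (Convex ℝ (closure X) → IsomEmbeds X N) ∧
    ((∀ x ∈ X, ∀ y ∈ X, x + y ∈ X) → IsomEmbeds X N) ∧
    (LargeFlat X → IsomEmbeds X N) ∧
    (∀ (m : ℕ) (Y : Fin m → Set H), X = ⋃ i, Y i →
      (∀ i, Convex ℝ (closure (Y i)) ∨ (∀ x ∈ Y i, ∀ y ∈ Y i, x + y ∈ Y i) ∨ LargeFlat (Y i)) →
      IsomEmbeds X (m * (N + 1))) := by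
  intro H _ _ X N hX
  refine ⟨fun h => embeds hX (closure_flat h), fun h => embeds hX (add_flat h),
    fun h => embeds hX h, fun m Y hXY hY => embeds_union hX Y hXY fun i => ?_⟩
  rcases hY i with h | h | h
  · exact closure_flat h
  · exact add_flat h
  · exact h

end Vale.Agent.Results.P208.FlatPieces
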